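import Mathlib

namespace Vale.Agent.Results.P154.A_SmallLambdaRegion

open Finset

/-- The `q`-state Potts channel with eigenvalue `lam`: the probability of passing from
spin `i` to spin `j` is `lam * 1[i = j] + (1 - lam) / q`. -/
noncomputable def chan (q : ℕ) (lam : ℝ) (i j : Fin q) : ℝ :=
  lam * (if i = j then 1 else 0) + (1 - lam) / (q : ℝ)

/-- `leafLaw q d lam n i η`: on the rooted `d`-ary tree, the probability that the spins at
distance `n` from the root form the configuration `η`, given that the root spin is `i`.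
A vertex at distance `n` is a word `Fin n → Fin d` (the successive child indices), and a
configuration assigns a spin to every such word.  At distance `0` the only vertex is the
root; for `n + 1` the `d` subtrees of the root are independent given the root spin, and the
subtree of child `c` carries the configuration `fun w => η (Fin.cons c w)`. -/
noncomputable def leafLaw (q d : ℕ) (lam : ℝ) :
    (n : ℕ) → Fin q → ((Fin n → Fin d) → Fin q) → ℝ
  | 0, i, η => if η Fin.elim0 = i then 1 else 0
  | n + 1, i, η => ∏ c : Fin d, ∑ j : Fin q,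
      chan q lam i j * leafLaw q d lam n j (fun w => η (Fin.cons c w : Fin (n + 1) → Fin d))

/-- the joint probability that the root spin is `i` (uniform root) and the spins at
distance `n` form the configuration `η` -/
noncomputable def joint (q d : ℕ) (lam : ℝ) (n : ℕ) (i : Fin q)
    (η : (Fin n → Fin d) → Fin q) : ℝ :=
  (1 / (q : ℝ)) * leafLaw q d lam n i η

/-- the probability that the spins at distance `n` form the configuration `η` -/
noncomputable def marg (q d : ℕ) (lam : ℝ) (n : ℕ) (η : (Fin n → Fin d) → Fin q) : ℝ :=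
  ∑ j : Fin q, joint q d lam n j η

/-- The quantity `a_n` of the problem for the rooted `d`-ary tree: the expectation over the
configuration `η` at distance `n` of `(1/2) * ∑ i, |Pr(root = i | η) - 1/q|`. -/
noncomputable def rootBias (q d : ℕ) (lam : ℝ) (n : ℕ) : ℝ :=
  ∑ η : (Fin n → Fin d) → Fin q, marg q d lam n η *
    ((1 / 2) * ∑ i : Fin q, |joint q d lam n i η / marg q d lam n η - 1 / (q : ℝ)|)

section proofs

variable {q d : ℕ} {lam : ℝ}

theorem chan_nonneg (hq : 0 < q) (h0 : -1 ≤ ((q : ℝ) - 1) * lam) (h1 : lam ≤ 1) (i j : Fin q) :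
    0 ≤ chan q lam i j := by
  unfold chan
  have hq' : (0 : ℝ) < q := by exact_mod_cast hq
  split_ifs
  · have e : lam * 1 + (1 - lam) / (q : ℝ) = (((q : ℝ) - 1) * lam + 1) / (q : ℝ) := by
      field_simp
      ring
    rw [e]
    exact div_nonneg (by linarith) hq'.le
  · have : 0 ≤ (1 - lam) / (q : ℝ) := div_nonneg (by linarith) hq'.le
    linarith

theorem chan_sum (_hq : 0 < q) (i : Fin q) (f : Fin q → ℝ) :
    ∑ j : Fin q, chan q lam i j * f j = lam * f i + (1 - lam) / (q : ℝ) * ∑ j : Fin q, f j := by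
  unfold chan
  simp only [add_mul, Finset.sum_add_distrib, Finset.mul_sum]
  congr 1
  simp [mul_ite, ite_mul, Finset.sum_ite_eq]

/-- restriction of a configuration to the subtrees of the root -/
def splitEquiv (q d n : ℕ) :
    ((Fin (n + 1) → Fin d) → Fin q) ≃ (Fin d → ((Fin n → Fin d) → Fin q)) where
  toFun η := fun c w => η (Fin.cons c w : Fin (n + 1) → Fin d)
  invFun g := fun w => g (w 0) (Fin.tail w)
  left_inv η := by
    funext w
    simp [Fin.cons_self_tail]
  right_inv g := by
    funext c w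
    simp [Fin.tail_cons]

theorem leafLaw_succ (n : ℕ) (i : Fin q) (η : (Fin (n + 1) → Fin d) → Fin q) :
    leafLaw q d lam (n + 1) i η =
      ∏ c : Fin d, ∑ j : Fin q, chan q lam i j * leafLaw q d lam n j (splitEquiv q d n η c) := by
  rfl

theorem leafLaw_nonneg (hq : 0 < q) (h0 : -1 ≤ ((q : ℝ) - 1) * lam) (h1 : lam ≤ 1) :
    ∀ (n : ℕ) (i : Fin q) (η : (Fin n → Fin d) → Fin q), 0 ≤ leafLaw q d lam n i η := by
  intro n
  induction n with
  | zero =>
    intro i η
    unfold leafLaw
    split_ifs <;> norm_num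
  | succ n ih =>
    intro i η
    rw [leafLaw_succ]
    exact Finset.prod_nonneg fun c _ =>
      Finset.sum_nonneg fun j _ => mul_nonneg (chan_nonneg hq h0 h1 i j) (ih j _)

theorem leafLaw_sum (hq : 0 < q) :
    ∀ (n : ℕ) (i : Fin q), ∑ η : (Fin n → Fin d) → Fin q, leafLaw q d lam n i η = 1 := by
  intro n
  induction n with
  | zero =>
    intro i
    have h := Fintype.sum_equiv (Equiv.funUnique (Fin 0 → Fin d) (Fin q))
      (fun η : (Fin 0 → Fin d) → Fin q => leafLaw q d lam 0 i η)
      (fun x : Fin q => if x = i then (1 : ℝ) else 0)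
      (by
        intro η
        unfold leafLaw
        have : η Fin.elim0 = (Equiv.funUnique (Fin 0 → Fin d) (Fin q)) η := by
          simp [Equiv.funUnique, Subsingleton.elim (default : Fin 0 → Fin d) Fin.elim0]
        rw [this])
    rw [h]
    simp
  | succ n ih =>
    intro i
    have h := Fintype.sum_equiv (splitEquiv q d n)
      (fun η : (Fin (n + 1) → Fin d) → Fin q => leafLaw q d lam (n + 1) i η)
      (fun g : Fin d → ((Fin n → Fin d) → Fin q) =>
        ∏ c : Fin d, ∑ j : Fin q, chan q lam i j * leafLaw q d lam n j (g c))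
      (fun η => leafLaw_succ n i η)
    rw [h, ← Fintype.prod_sum (fun (_ : Fin d) (x : (Fin n → Fin d) → Fin q) =>
      ∑ j : Fin q, chan q lam i j * leafLaw q d lam n j x)]
    have hone : ∑ x : (Fin n → Fin d) → Fin q,
        ∑ j : Fin q, chan q lam i j * leafLaw q d lam n j x = 1 := by
      rw [Finset.sum_comm]
      simp only [← Finset.mul_sum, ih, mul_one]
      have := chan_sum (lam := lam) hq i (fun _ => (1 : ℝ))
      simp only [mul_one] at this
      rw [this]
      have hq' : (q : ℝ) ≠ 0 := by exact_mod_cast hq.ne'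
      simp only [Finset.sum_const, Finset.card_univ, Fintype.card_fin, nsmul_eq_mul, mul_one]
      rw [div_mul_cancel₀ _ hq']
      ring
    simp [hone]

/-- total variation of product laws is subadditive -/
theorem prod_tv {X : Type} [Fintype X] (a b : X → ℝ) (ha : ∀ x, 0 ≤ a x) (hb : ∀ x, 0 ≤ b x)
    (sa : ∑ x, a x = 1) (sb : ∑ x, b x = 1) :
    ∀ m : ℕ, ∑ g : Fin m → X, |∏ c, a (g c) - ∏ c, b (g c)| ≤ (m : ℝ) * ∑ x, |a x - b x| := by
  intro m
  induction m with
  | zero => simp
  | succ m ih =>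
    have hA : ∑ g : Fin m → X, ∏ c, a (g c) = 1 := by
      rw [← Fintype.sum_pow, sa, one_pow]
    have h := Fintype.sum_equiv (Fin.consEquiv (fun _ : Fin (m + 1) => X)).symm
      (fun g : Fin (m + 1) → X => |∏ c, a (g c) - ∏ c, b (g c)|)
      (fun p : X × (Fin m → X) => |a p.1 * ∏ c, a (p.2 c) - b p.1 * ∏ c, b (p.2 c)|)
      (by
        intro g
        simp [Fin.consEquiv, Fin.prod_univ_succ, Fin.tail])
    rw [h, Fintype.sum_prod_type]
    have hterm : ∀ (x : X) (g : Fin m → X),
        |a x * ∏ c, a (g c) - b x * ∏ c, b (g c)| ≤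
          |a x - b x| * ∏ c, a (g c) + b x * |∏ c, a (g c) - ∏ c, b (g c)| := by
      intro x g
      have hAg : 0 ≤ ∏ c, a (g c) := Finset.prod_nonneg fun c _ => ha _
      have e : a x * ∏ c, a (g c) - b x * ∏ c, b (g c) =
          (a x - b x) * ∏ c, a (g c) + b x * (∏ c, a (g c) - ∏ c, b (g c)) := by ring
      rw [e]
      calc |(a x - b x) * ∏ c, a (g c) + b x * (∏ c, a (g c) - ∏ c, b (g c))|
          ≤ |(a x - b x) * ∏ c, a (g c)| + |b x * (∏ c, a (g c) - ∏ c, b (g c))| := abs_add_le _ _
        _ = |a x - b x| * ∏ c, a (g c) + b x * |∏ c, a (g c) - ∏ c, b (g c)| := by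
            rw [abs_mul, abs_mul, abs_of_nonneg hAg, abs_of_nonneg (hb x)]
    calc ∑ x : X, ∑ g : Fin m → X, |a x * ∏ c, a (g c) - b x * ∏ c, b (g c)|
        ≤ ∑ x : X, ∑ g : Fin m → X,
            (|a x - b x| * ∏ c, a (g c) + b x * |∏ c, a (g c) - ∏ c, b (g c)|) :=
          Finset.sum_le_sum fun x _ => Finset.sum_le_sum fun g _ => hterm x g
      _ = ∑ x : X, (|a x - b x| + b x * ∑ g : Fin m → X, |∏ c, a (g c) - ∏ c, b (g c)|) := by
          refine Finset.sum_congr rfl fun x _ => ?_
          rw [Finset.sum_add_distrib, ← Finset.mul_sum, ← Finset.mul_sum, hA, mul_one]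
      _ = ∑ x : X, |a x - b x| + ∑ g : Fin m → X, |∏ c, a (g c) - ∏ c, b (g c)| := by
          rw [Finset.sum_add_distrib, ← Finset.sum_mul, sb, one_mul]
      _ ≤ ∑ x : X, |a x - b x| + (m : ℝ) * ∑ x, |a x - b x| := by linarith
      _ = ((m + 1 : ℕ) : ℝ) * ∑ x, |a x - b x| := by push_cast; ring

/-- the laws of the level-`n` configuration under two root spins are at `L1` distance at
most `2 (d lam)^n` -/
theorem leafLaw_l1 (hq : 0 < q) (h0 : -1 ≤ ((q : ℝ) - 1) * lam) (h1 : lam ≤ 1) :
    ∀ (n : ℕ) (i i' : Fin q),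
      ∑ η : (Fin n → Fin d) → Fin q, |leafLaw q d lam n i η - leafLaw q d lam n i' η| ≤
        2 * ((d : ℝ) * |lam|) ^ n := by
  intro n
  induction n with
  | zero =>
    intro i i'
    calc ∑ η : (Fin 0 → Fin d) → Fin q, |leafLaw q d lam 0 i η - leafLaw q d lam 0 i' η|
        ≤ ∑ η : (Fin 0 → Fin d) → Fin q, (leafLaw q d lam 0 i η + leafLaw q d lam 0 i' η) := by
          refine Finset.sum_le_sum fun η _ => ?_
          have ha := leafLaw_nonneg (d := d) hq h0 h1 0 i η
          have hb := leafLaw_nonneg (d := d) hq h0 h1 0 i' η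
          rw [abs_le]
          constructor <;> linarith
      _ = 2 * ((d : ℝ) * |lam|) ^ 0 := by
          rw [Finset.sum_add_distrib, leafLaw_sum hq, leafLaw_sum hq]
          norm_num
  | succ n ih =>
    intro i i'
    set a : ((Fin n → Fin d) → Fin q) → ℝ :=
      fun x => ∑ j : Fin q, chan q lam i j * leafLaw q d lam n j x with ha_def
    set b : ((Fin n → Fin d) → Fin q) → ℝ :=
      fun x => ∑ j : Fin q, chan q lam i' j * leafLaw q d lam n j x with hb_def
    have ha : ∀ x, 0 ≤ a x := fun x =>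
      Finset.sum_nonneg fun j _ => mul_nonneg (chan_nonneg hq h0 h1 i j) (leafLaw_nonneg hq h0 h1 n j x)
    have hb : ∀ x, 0 ≤ b x := fun x =>
      Finset.sum_nonneg fun j _ => mul_nonneg (chan_nonneg hq h0 h1 i' j) (leafLaw_nonneg hq h0 h1 n j x)
    have hq' : (q : ℝ) ≠ 0 := by exact_mod_cast hq.ne'
    have sum_one : ∀ k : Fin q, ∑ x : (Fin n → Fin d) → Fin q,
        ∑ j : Fin q, chan q lam k j * leafLaw q d lam n j x = 1 := by
      intro k
      rw [Finset.sum_comm]
      simp only [← Finset.mul_sum, leafLaw_sum hq, mul_one]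
      have := chan_sum (lam := lam) hq k (fun _ => (1 : ℝ))
      simp only [mul_one] at this
      rw [this]
      simp only [Finset.sum_const, Finset.card_univ, Fintype.card_fin, nsmul_eq_mul, mul_one]
      rw [div_mul_cancel₀ _ hq']
      ring
    have sa : ∑ x, a x = 1 := sum_one i
    have sb : ∑ x, b x = 1 := sum_one i'
    have hdiff : ∀ x, a x - b x = lam * (leafLaw q d lam n i x - leafLaw q d lam n i' x) := by
      intro x
      simp only [ha_def, hb_def]
      rw [chan_sum hq, chan_sum hq]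
      ring
    have h := Fintype.sum_equiv (splitEquiv q d n)
      (fun η : (Fin (n + 1) → Fin d) → Fin q =>
        |leafLaw q d lam (n + 1) i η - leafLaw q d lam (n + 1) i' η|)
      (fun g : Fin d → ((Fin n → Fin d) → Fin q) => |∏ c, a (g c) - ∏ c, b (g c)|)
      (fun η => by rw [leafLaw_succ, leafLaw_succ])
    rw [h]
    calc ∑ g : Fin d → ((Fin n → Fin d) → Fin q), |∏ c, a (g c) - ∏ c, b (g c)|
        ≤ (d : ℝ) * ∑ x, |a x - b x| := prod_tv a b ha hb sa sb d
      _ = (d : ℝ) * (|lam| * ∑ x, |leafLaw q d lam n i x - leafLaw q d lam n i' x|) := by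
          congr 1
          rw [Finset.mul_sum]
          refine Finset.sum_congr rfl fun x _ => ?_
          rw [hdiff, abs_mul]
      _ ≤ (d : ℝ) * (|lam| * (2 * ((d : ℝ) * |lam|) ^ n)) := by
          have := ih i i'
          have hd : (0 : ℝ) ≤ d := Nat.cast_nonneg d
          exact mul_le_mul_of_nonneg_left (mul_le_mul_of_nonneg_left this (abs_nonneg lam)) hd
      _ = 2 * ((d : ℝ) * |lam|) ^ (n + 1) := by ring

theorem marg_nonneg (hq : 0 < q) (h0 : -1 ≤ ((q : ℝ) - 1) * lam) (h1 : lam ≤ 1) (n : ℕ)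
    (η : (Fin n → Fin d) → Fin q) : 0 ≤ marg q d lam n η := by
  unfold marg joint
  have hq' : (0 : ℝ) < q := by exact_mod_cast hq
  exact Finset.sum_nonneg fun j _ =>
    mul_nonneg (by positivity) (leafLaw_nonneg hq h0 h1 n j η)

theorem rootBias_nonneg (hq : 0 < q) (h0 : -1 ≤ ((q : ℝ) - 1) * lam) (h1 : lam ≤ 1) (n : ℕ) :
    0 ≤ rootBias q d lam n := by
  unfold rootBias
  exact Finset.sum_nonneg fun η _ =>
    mul_nonneg (marg_nonneg hq h0 h1 n η)
      (mul_nonneg (by norm_num) (Finset.sum_nonneg fun i _ => abs_nonneg _))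

theorem rootBias_le (hq : 0 < q) (h0 : -1 ≤ ((q : ℝ) - 1) * lam) (h1 : lam ≤ 1) (n : ℕ) :
    rootBias q d lam n ≤ ((d : ℝ) * |lam|) ^ n := by
  have hq' : (0 : ℝ) < q := by exact_mod_cast hq
  have hqne : (q : ℝ) ≠ 0 := hq'.ne'
  -- pointwise bound
  have hpt : ∀ η : (Fin n → Fin d) → Fin q,
      marg q d lam n η *
        ((1 / 2) * ∑ i : Fin q, |joint q d lam n i η / marg q d lam n η - 1 / (q : ℝ)|) ≤
      (1 / (2 * (q : ℝ) ^ 2)) * ∑ i : Fin q, ∑ j : Fin q,
        |leafLaw q d lam n i η - leafLaw q d lam n j η| := by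
    intro η
    have hm := marg_nonneg (d := d) hq h0 h1 n η
    have hterm : ∀ i : Fin q,
        marg q d lam n η * |joint q d lam n i η / marg q d lam n η - 1 / (q : ℝ)| ≤
          (1 / (q : ℝ) ^ 2) * ∑ j : Fin q, |leafLaw q d lam n i η - leafLaw q d lam n j η| := by
      intro i
      have hR : 0 ≤ (1 / (q : ℝ) ^ 2) * ∑ j : Fin q,
          |leafLaw q d lam n i η - leafLaw q d lam n j η| :=
        mul_nonneg (by positivity) (Finset.sum_nonneg fun j _ => abs_nonneg _)
      rcases hm.eq_or_lt with h | h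
      · rw [← h, zero_mul]; exact hR
      · have e1 : marg q d lam n η * |joint q d lam n i η / marg q d lam n η - 1 / (q : ℝ)| =
            |joint q d lam n i η - marg q d lam n η / (q : ℝ)| := by
          rw [← abs_of_pos h, ← abs_mul, abs_of_pos h]
          congr 1
          field_simp
        rw [e1]
        have e2 : joint q d lam n i η - marg q d lam n η / (q : ℝ) =
            (1 / (q : ℝ) ^ 2) * ∑ j : Fin q, (leafLaw q d lam n i η - leafLaw q d lam n j η) := by
          unfold marg joint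
          rw [Finset.sum_sub_distrib, ← Finset.mul_sum]
          simp only [Finset.sum_const, Finset.card_univ, Fintype.card_fin, nsmul_eq_mul]
          field_simp
        rw [e2, abs_mul, abs_of_nonneg (by positivity : (0 : ℝ) ≤ 1 / (q : ℝ) ^ 2)]
        exact mul_le_mul_of_nonneg_left (Finset.abs_sum_le_sum_abs _ _) (by positivity)
    calc marg q d lam n η *
          ((1 / 2) * ∑ i : Fin q, |joint q d lam n i η / marg q d lam n η - 1 / (q : ℝ)|)
        = (1 / 2) * ∑ i : Fin q,
            marg q d lam n η * |joint q d lam n i η / marg q d lam n η - 1 / (q : ℝ)| := by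
          rw [← mul_assoc, mul_comm (marg q d lam n η) (1 / 2), mul_assoc, Finset.mul_sum]
      _ ≤ (1 / 2) * ∑ i : Fin q, (1 / (q : ℝ) ^ 2) *
            ∑ j : Fin q, |leafLaw q d lam n i η - leafLaw q d lam n j η| :=
          mul_le_mul_of_nonneg_left (Finset.sum_le_sum fun i _ => hterm i) (by norm_num)
      _ = (1 / (2 * (q : ℝ) ^ 2)) * ∑ i : Fin q, ∑ j : Fin q,
            |leafLaw q d lam n i η - leafLaw q d lam n j η| := by
          rw [← Finset.mul_sum]; field_simp
  unfold rootBias
  calc ∑ η : (Fin n → Fin d) → Fin q, marg q d lam n η *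
        ((1 / 2) * ∑ i : Fin q, |joint q d lam n i η / marg q d lam n η - 1 / (q : ℝ)|)
      ≤ ∑ η : (Fin n → Fin d) → Fin q, (1 / (2 * (q : ℝ) ^ 2)) * ∑ i : Fin q, ∑ j : Fin q,
          |leafLaw q d lam n i η - leafLaw q d lam n j η| :=
        Finset.sum_le_sum fun η _ => hpt η
    _ = (1 / (2 * (q : ℝ) ^ 2)) * ∑ i : Fin q, ∑ j : Fin q,
          ∑ η : (Fin n → Fin d) → Fin q, |leafLaw q d lam n i η - leafLaw q d lam n j η| := by
        rw [← Finset.mul_sum, Finset.sum_comm]
        congr 1
        refine Finset.sum_congr rfl fun i _ => ?_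
        rw [Finset.sum_comm]
    _ ≤ (1 / (2 * (q : ℝ) ^ 2)) * ∑ i : Fin q, ∑ j : Fin q, (2 * ((d : ℝ) * |lam|) ^ n) := by
        refine mul_le_mul_of_nonneg_left ?_ (by positivity)
        exact Finset.sum_le_sum fun i _ => Finset.sum_le_sum fun j _ => leafLaw_l1 hq h0 h1 n i j
    _ = ((d : ℝ) * |lam|) ^ n := by
        simp only [Finset.sum_const, Finset.card_univ, Fintype.card_fin, nsmul_eq_mul]
        field_simp

end proofs

/-- **Nonreconstruction for small `|lam|` on the `d`-ary tree.**  For every number of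
states `q ≥ 1`, every `d` and every admissible `lam` (that is `-1/(q-1) ≤ lam ≤ 1`, written
`-1 ≤ (q - 1) * lam` and `lam ≤ 1`) with `d * |lam| < 1`, the quantity `a_n` of the `q`-state
Potts channel on the rooted `d`-ary tree satisfies `a_n ≤ (d * |lam|)^n` for every `n`; in
particular `a_n → 0` (nonreconstruction). -/
theorem result (q d : ℕ) (hq : 0 < q) (lam : ℝ) (h0 : -1 ≤ ((q : ℝ) - 1) * lam) (h1 : lam ≤ 1)
    (hd : (d : ℝ) * |lam| < 1) :
    (∀ n : ℕ, rootBias q d lam n ≤ ((d : ℝ) * |lam|) ^ n) ∧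
      Filter.Tendsto (rootBias q d lam) Filter.atTop (nhds 0) := by
  refine ⟨fun n => rootBias_le hq h0 h1 n, ?_⟩
  have hnn : 0 ≤ (d : ℝ) * |lam| := mul_nonneg (Nat.cast_nonneg d) (abs_nonneg lam)
  exact squeeze_zero (fun n => rootBias_nonneg hq h0 h1 n) (fun n => rootBias_le hq h0 h1 n)
    (tendsto_pow_atTop_nhds_zero_of_lt_one hnn hd)

end Vale.Agent.Results.P154.A_SmallLambdaRegion
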