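import Mathlib
import Vale.Agent.Results.P154.A_SmallLambdaRegion

namespace Vale.Agent.Results.P154.B_HellingerRegion

open Finset
open Vale.Agent.Results.P154.A_SmallLambdaRegion

/-- the affinity `∑ x, √(P x * Q x)` of two weight functions on a finite set -/
noncomputable def bc {X : Type} [Fintype X] (P Q : X → ℝ) : ℝ := ∑ x, Real.sqrt (P x * Q x)

section general

variable {X : Type} [Fintype X] (P Q : X → ℝ)

theorem bc_nonneg : 0 ≤ bc P Q := Finset.sum_nonneg fun _ _ => Real.sqrt_nonneg _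

theorem sq_diff_sum (hP : ∀ x, 0 ≤ P x) (hQ : ∀ x, 0 ≤ Q x)
    (sP : ∑ x, P x = 1) (sQ : ∑ x, Q x = 1) :
    ∑ x, (Real.sqrt (P x) - Real.sqrt (Q x)) ^ 2 = 2 - 2 * bc P Q := by
  unfold bc
  have h : ∀ x, (Real.sqrt (P x) - Real.sqrt (Q x)) ^ 2 =
      P x + Q x - 2 * Real.sqrt (P x * Q x) := by
    intro x
    rw [Real.sqrt_mul (hP x)]
    nlinarith [Real.sq_sqrt (hP x), Real.sq_sqrt (hQ x)]
  simp only [h, Finset.sum_sub_distrib, Finset.sum_add_distrib, sP, sQ, ← Finset.mul_sum]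
  ring

theorem sq_add_sum (hP : ∀ x, 0 ≤ P x) (hQ : ∀ x, 0 ≤ Q x)
    (sP : ∑ x, P x = 1) (sQ : ∑ x, Q x = 1) :
    ∑ x, (Real.sqrt (P x) + Real.sqrt (Q x)) ^ 2 = 2 + 2 * bc P Q := by
  unfold bc
  have h : ∀ x, (Real.sqrt (P x) + Real.sqrt (Q x)) ^ 2 =
      P x + Q x + 2 * Real.sqrt (P x * Q x) := by
    intro x
    rw [Real.sqrt_mul (hP x)]
    nlinarith [Real.sq_sqrt (hP x), Real.sq_sqrt (hQ x)]
  simp only [h, Finset.sum_add_distrib, sP, sQ, ← Finset.mul_sum]
  ring

theorem bc_le_one (hP : ∀ x, 0 ≤ P x) (hQ : ∀ x, 0 ≤ Q x)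
    (sP : ∑ x, P x = 1) (sQ : ∑ x, Q x = 1) : bc P Q ≤ 1 := by
  have h1 := sq_diff_sum P Q hP hQ sP sQ
  have h2 : 0 ≤ ∑ x, (Real.sqrt (P x) - Real.sqrt (Q x)) ^ 2 :=
    Finset.sum_nonneg fun x _ => sq_nonneg _
  linarith

theorem bc_self (hP : ∀ x, 0 ≤ P x) (sP : ∑ x, P x = 1) : bc P P = 1 := by
  unfold bc
  rw [← sP]
  exact Finset.sum_congr rfl fun x _ => Real.sqrt_mul_self (hP x)

/-- the `L1` distance is controlled by the affinity -/
theorem l1_sq_le (hP : ∀ x, 0 ≤ P x) (hQ : ∀ x, 0 ≤ Q x)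
    (sP : ∑ x, P x = 1) (sQ : ∑ x, Q x = 1) :
    (∑ x, |P x - Q x|) ^ 2 ≤ 8 * (1 - bc P Q) := by
  have hpt : ∀ x, |P x - Q x| =
      |Real.sqrt (P x) - Real.sqrt (Q x)| * (Real.sqrt (P x) + Real.sqrt (Q x)) := by
    intro x
    have e : P x - Q x =
        (Real.sqrt (P x) - Real.sqrt (Q x)) * (Real.sqrt (P x) + Real.sqrt (Q x)) := by
      nlinarith [Real.sq_sqrt (hP x), Real.sq_sqrt (hQ x)]
    rw [e, abs_mul, abs_of_nonneg (add_nonneg (Real.sqrt_nonneg _) (Real.sqrt_nonneg _))]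
  have cs := Finset.sum_mul_sq_le_sq_mul_sq Finset.univ
    (fun x => |Real.sqrt (P x) - Real.sqrt (Q x)|)
    (fun x => Real.sqrt (P x) + Real.sqrt (Q x))
  simp only [sq_abs] at cs
  rw [sq_diff_sum P Q hP hQ sP sQ, sq_add_sum P Q hP hQ sP sQ] at cs
  have hb0 := bc_nonneg P Q
  have hb1 := bc_le_one P Q hP hQ sP sQ
  calc (∑ x, |P x - Q x|) ^ 2
      = (∑ x, |Real.sqrt (P x) - Real.sqrt (Q x)| * (Real.sqrt (P x) + Real.sqrt (Q x))) ^ 2 := by
        simp only [hpt]
    _ ≤ (2 - 2 * bc P Q) * (2 + 2 * bc P Q) := cs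
    _ ≤ 8 * (1 - bc P Q) := by nlinarith

/-- the affinity of product weights is the power of the affinity -/
theorem bc_prod (a b : X → ℝ) (ha : ∀ x, 0 ≤ a x) (hb : ∀ x, 0 ≤ b x) (m : ℕ) :
    bc (fun g : Fin m → X => ∏ c, a (g c)) (fun g : Fin m → X => ∏ c, b (g c)) =
      (bc a b) ^ m := by
  unfold bc
  rw [Fintype.sum_pow]
  refine Finset.sum_congr rfl fun g _ => ?_
  rw [← Finset.prod_mul_distrib, Real.sqrt_prod]
  intro c _
  exact mul_nonneg (ha _) (hb _)

end general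

/-- pointwise comparison used for the mixing step -/
theorem mix_pointwise (s t m v lam c : ℝ) (hs : 0 ≤ s) (ht : 0 ≤ t) (hm : 0 ≤ m) (hv : 0 ≤ v)
    (hc : 0 < c) (hcl : |lam| ≤ c) (hdiff : s ^ 2 - t ^ 2 = lam * (m ^ 2 - v ^ 2))
    (hsum : c * (m ^ 2 + v ^ 2) ≤ s ^ 2 + t ^ 2) :
    c * (s - t) ^ 2 ≤ lam ^ 2 * (m - v) ^ 2 := by
  have key : ((s - t) * (s + t)) ^ 2 = lam ^ 2 * ((m - v) * (m + v)) ^ 2 := by
    have e1 : (s - t) * (s + t) = lam * ((m - v) * (m + v)) := by
      have : (s - t) * (s + t) = s ^ 2 - t ^ 2 := by ring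
      rw [this, hdiff]; ring
    rw [e1]; ring
  have hcl2 : lam ^ 2 ≤ c ^ 2 := by
    have := abs_nonneg lam
    calc lam ^ 2 = |lam| ^ 2 := (sq_abs lam).symm
      _ ≤ c ^ 2 := pow_le_pow_left₀ this hcl 2
  -- the key estimate `(s + t)^2 ≥ c (m + v)^2`
  have hge : c * (m + v) ^ 2 ≤ (s + t) ^ 2 := by
    have h2st : (2 * s * t) ^ 2 = (s ^ 2 + t ^ 2) ^ 2 - (lam * (m ^ 2 - v ^ 2)) ^ 2 := by
      rw [← hdiff]; ring
    have hid : (2 * s * t) ^ 2 - (c * (m + v) ^ 2 - (s ^ 2 + t ^ 2)) ^ 2 =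
        (c ^ 2 - lam ^ 2) * (m ^ 2 - v ^ 2) ^ 2 +
          2 * c * (s ^ 2 + t ^ 2 - c * (m ^ 2 + v ^ 2)) * (m + v) ^ 2 := by
      rw [h2st]; ring
    have hnn : 0 ≤ (c ^ 2 - lam ^ 2) * (m ^ 2 - v ^ 2) ^ 2 +
        2 * c * (s ^ 2 + t ^ 2 - c * (m ^ 2 + v ^ 2)) * (m + v) ^ 2 := by
      have t1 : 0 ≤ (c ^ 2 - lam ^ 2) * (m ^ 2 - v ^ 2) ^ 2 :=
        mul_nonneg (by linarith) (sq_nonneg _)
      have t2 : 0 ≤ 2 * c * (s ^ 2 + t ^ 2 - c * (m ^ 2 + v ^ 2)) * (m + v) ^ 2 :=
        mul_nonneg (mul_nonneg (by linarith) (by linarith)) (sq_nonneg _)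
      linarith
    have hsq : (c * (m + v) ^ 2 - (s ^ 2 + t ^ 2)) ^ 2 ≤ (2 * s * t) ^ 2 := by linarith
    have h2 : c * (m + v) ^ 2 - (s ^ 2 + t ^ 2) ≤ 2 * s * t :=
      (abs_le_of_sq_le_sq' hsq (by positivity)).2
    nlinarith
  rcases (add_nonneg hm hv).eq_or_lt with h0 | hpos
  · have hm0 : m = 0 := by linarith
    have hv0 : v = 0 := by linarith
    rw [hm0, hv0] at hdiff
    have hst : s ^ 2 = t ^ 2 := by linarith
    have : s = t := by nlinarith [sq_nonneg (s - t), sq_nonneg (s + t)]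
    rw [this, hm0, hv0]
    simp
  · have hpos2 : 0 < (m + v) ^ 2 := by positivity
    have h3 : c * (s - t) ^ 2 * (m + v) ^ 2 ≤ lam ^ 2 * (m - v) ^ 2 * (m + v) ^ 2 := by
      have h4 : (s - t) ^ 2 * (c * (m + v) ^ 2) ≤ (s - t) ^ 2 * (s + t) ^ 2 :=
        mul_le_mul_of_nonneg_left hge (sq_nonneg _)
      have h5 : (s - t) ^ 2 * (s + t) ^ 2 = lam ^ 2 * ((m - v) ^ 2 * (m + v) ^ 2) := by
        rw [← mul_pow, key, mul_pow]
      nlinarith
    exact le_of_mul_le_mul_right h3 hpos2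

section tree

variable {q d : ℕ} {lam : ℝ}

theorem denom_pos (hq : 0 < q) (h0 : -1 ≤ ((q : ℝ) - 1) * lam) (h1 : lam ≤ 1) :
    0 < 2 + ((q : ℝ) - 2) * lam := by
  have hq' : (1 : ℝ) ≤ q := by exact_mod_cast hq
  rcases h1.lt_or_eq with h | h
  · nlinarith
  · rw [h]; linarith

/-- the level-`n` laws under two root spins have affinity at least `1 - rho^n` -/
theorem one_sub_bc_le (hq : 0 < q) (h0 : -1 ≤ ((q : ℝ) - 1) * lam) (h1 : lam ≤ 1) :
    ∀ (n : ℕ) (i i' : Fin q),
      1 - bc (leafLaw q d lam n i) (leafLaw q d lam n i') ≤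
        (d * q * lam ^ 2 / (2 + ((q : ℝ) - 2) * lam)) ^ n := by
  have hD := denom_pos hq h0 h1
  have hq' : (0 : ℝ) < q := by exact_mod_cast hq
  have hρ0 : 0 ≤ d * q * lam ^ 2 / (2 + ((q : ℝ) - 2) * lam) := by positivity
  intro n
  induction n with
  | zero =>
    intro i i'
    have := bc_nonneg (leafLaw q d lam 0 i) (leafLaw q d lam 0 i')
    simp only [pow_zero]
    linarith
  | succ n ih =>
    intro i i'
    by_cases hii : i = i'
    · subst hii
      rw [bc_self _ (leafLaw_nonneg hq h0 h1 (n + 1) i) (leafLaw_sum hq (n + 1) i)]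
      simpa using pow_nonneg hρ0 (n + 1)
    set a : ((Fin n → Fin d) → Fin q) → ℝ :=
      fun x => ∑ j : Fin q, chan q lam i j * leafLaw q d lam n j x with ha_def
    set b : ((Fin n → Fin d) → Fin q) → ℝ :=
      fun x => ∑ j : Fin q, chan q lam i' j * leafLaw q d lam n j x with hb_def
    have ha : ∀ x, 0 ≤ a x := fun x =>
      Finset.sum_nonneg fun j _ => mul_nonneg (chan_nonneg hq h0 h1 i j) (leafLaw_nonneg hq h0 h1 n j x)
    have hb : ∀ x, 0 ≤ b x := fun x =>
      Finset.sum_nonneg fun j _ => mul_nonneg (chan_nonneg hq h0 h1 i' j) (leafLaw_nonneg hq h0 h1 n j x)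
    have hqne : (q : ℝ) ≠ 0 := hq'.ne'
    have sum_one : ∀ k : Fin q, ∑ x : (Fin n → Fin d) → Fin q,
        ∑ j : Fin q, chan q lam k j * leafLaw q d lam n j x = 1 := by
      intro k
      rw [Finset.sum_comm]
      simp only [← Finset.mul_sum, leafLaw_sum hq, mul_one]
      have := chan_sum (lam := lam) hq k (fun _ => (1 : ℝ))
      simp only [mul_one] at this
      rw [this]
      simp only [Finset.sum_const, Finset.card_univ, Fintype.card_fin, nsmul_eq_mul, mul_one]
      rw [div_mul_cancel₀ _ hqne]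
      ring
    have sa : ∑ x, a x = 1 := sum_one i
    have sb : ∑ x, b x = 1 := sum_one i'
    -- the affinity at level n+1 is a power
    have hbc : bc (leafLaw q d lam (n + 1) i) (leafLaw q d lam (n + 1) i') = (bc a b) ^ d := by
      rw [← bc_prod a b ha hb d]
      unfold bc
      exact Fintype.sum_equiv (splitEquiv q d n) _ _ (fun η => by rw [leafLaw_succ, leafLaw_succ])
    -- mixing step
    have hmix : (2 + ((q : ℝ) - 2) * lam) / q * (2 - 2 * bc a b) ≤
        lam ^ 2 * (2 - 2 * bc (leafLaw q d lam n i) (leafLaw q d lam n i')) := by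
      rw [← sq_diff_sum a b ha hb sa sb,
        ← sq_diff_sum _ _ (leafLaw_nonneg hq h0 h1 n i) (leafLaw_nonneg hq h0 h1 n i')
          (leafLaw_sum hq n i) (leafLaw_sum hq n i'),
        Finset.mul_sum, Finset.mul_sum]
      refine Finset.sum_le_sum fun x _ => ?_
      have hμ := leafLaw_nonneg hq h0 h1 n i x
      have hν := leafLaw_nonneg hq h0 h1 n i' x
      have hax : a x = lam * leafLaw q d lam n i x +
          (1 - lam) / (q : ℝ) * ∑ j : Fin q, leafLaw q d lam n j x := by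
        simp only [ha_def]; exact chan_sum hq i _
      have hbx : b x = lam * leafLaw q d lam n i' x +
          (1 - lam) / (q : ℝ) * ∑ j : Fin q, leafLaw q d lam n j x := by
        simp only [hb_def]; exact chan_sum hq i' _
      have hS : leafLaw q d lam n i x + leafLaw q d lam n i' x ≤
          ∑ j : Fin q, leafLaw q d lam n j x := by
        calc leafLaw q d lam n i x + leafLaw q d lam n i' x
            = ∑ j ∈ ({i, i'} : Finset (Fin q)), leafLaw q d lam n j x :=
              (Finset.sum_pair (f := fun j : Fin q => leafLaw q d lam n j x) hii).symm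
          _ ≤ ∑ j : Fin q, leafLaw q d lam n j x :=
              Finset.sum_le_sum_of_subset_of_nonneg (Finset.subset_univ _)
                (fun j _ _ => leafLaw_nonneg hq h0 h1 n j x)
      have hcoef : 0 ≤ (1 - lam) / (q : ℝ) := div_nonneg (by linarith) hq'.le
      refine mix_pointwise (Real.sqrt (a x)) (Real.sqrt (b x))
        (Real.sqrt (leafLaw q d lam n i x)) (Real.sqrt (leafLaw q d lam n i' x)) lam
        ((2 + ((q : ℝ) - 2) * lam) / q) (Real.sqrt_nonneg _) (Real.sqrt_nonneg _)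
        (Real.sqrt_nonneg _) (Real.sqrt_nonneg _) (div_pos hD hq') ?_ ?_ ?_
      · rw [le_div_iff₀ hq']
        rcases abs_cases lam with ⟨h, _⟩ | ⟨h, _⟩ <;> rw [h] <;> nlinarith
      · rw [Real.sq_sqrt (ha x), Real.sq_sqrt (hb x), Real.sq_sqrt hμ, Real.sq_sqrt hν, hax, hbx]
        ring
      · rw [Real.sq_sqrt (ha x), Real.sq_sqrt (hb x), Real.sq_sqrt hμ, Real.sq_sqrt hν, hax, hbx]
        have e : (2 + ((q : ℝ) - 2) * lam) / q *
            (leafLaw q d lam n i x + leafLaw q d lam n i' x) =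
            lam * (leafLaw q d lam n i x + leafLaw q d lam n i' x) +
              2 * ((1 - lam) / (q : ℝ)) * (leafLaw q d lam n i x + leafLaw q d lam n i' x) := by
          field_simp
          ring
        rw [e]
        nlinarith [mul_le_mul_of_nonneg_left hS hcoef]
    -- Bernoulli
    have hx0 := bc_nonneg a b
    have hx1 := bc_le_one a b ha hb sa sb
    have hbern : 1 - (bc a b) ^ d ≤ (d : ℝ) * (1 - bc a b) := by
      have := one_add_mul_le_pow (a := bc a b - 1) (by linarith) d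
      have e : 1 + (bc a b - 1) = bc a b := by ring
      rw [e] at this
      linarith
    have hih := ih i i'
    rw [hbc]
    -- combine
    have h1' : 1 - bc a b ≤ q * lam ^ 2 / (2 + ((q : ℝ) - 2) * lam) *
        (1 - bc (leafLaw q d lam n i) (leafLaw q d lam n i')) := by
      rw [div_mul_eq_mul_div, le_div_iff₀ hD]
      have := hmix
      rw [div_mul_eq_mul_div, div_le_iff₀ hq'] at this
      nlinarith
    have hcoef2 : 0 ≤ q * lam ^ 2 / (2 + ((q : ℝ) - 2) * lam) := by positivity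
    calc 1 - (bc a b) ^ d ≤ (d : ℝ) * (1 - bc a b) := hbern
      _ ≤ (d : ℝ) * (q * lam ^ 2 / (2 + ((q : ℝ) - 2) * lam) *
            (1 - bc (leafLaw q d lam n i) (leafLaw q d lam n i'))) :=
          mul_le_mul_of_nonneg_left h1' (Nat.cast_nonneg d)
      _ ≤ (d : ℝ) * (q * lam ^ 2 / (2 + ((q : ℝ) - 2) * lam) *
            (d * q * lam ^ 2 / (2 + ((q : ℝ) - 2) * lam)) ^ n) :=
          mul_le_mul_of_nonneg_left (mul_le_mul_of_nonneg_left hih hcoef2) (Nat.cast_nonneg d)
      _ = (d * q * lam ^ 2 / (2 + ((q : ℝ) - 2) * lam)) ^ (n + 1) := by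
          rw [pow_succ]; ring

/-- `a_n` is at most half of any uniform bound for the `L1` distances between the level-`n`
laws under different root spins -/
theorem rootBias_le_of_l1 (hq : 0 < q) (h0 : -1 ≤ ((q : ℝ) - 1) * lam) (h1 : lam ≤ 1) (n : ℕ)
    (K : ℝ) (hK : ∀ i j : Fin q,
      ∑ η : (Fin n → Fin d) → Fin q, |leafLaw q d lam n i η - leafLaw q d lam n j η| ≤ K) :
    rootBias q d lam n ≤ K / 2 := by
  have hq' : (0 : ℝ) < q := by exact_mod_cast hq
  have hqne : (q : ℝ) ≠ 0 := hq'.ne'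
  have hpt : ∀ η : (Fin n → Fin d) → Fin q,
      marg q d lam n η *
        ((1 / 2) * ∑ i : Fin q, |joint q d lam n i η / marg q d lam n η - 1 / (q : ℝ)|) ≤
      (1 / (2 * (q : ℝ) ^ 2)) * ∑ i : Fin q, ∑ j : Fin q,
        |leafLaw q d lam n i η - leafLaw q d lam n j η| := by
    intro η
    have hm := marg_nonneg (d := d) hq h0 h1 n η
    have hterm : ∀ i : Fin q,
        marg q d lam n η * |joint q d lam n i η / marg q d lam n η - 1 / (q : ℝ)| ≤
          (1 / (q : ℝ) ^ 2) * ∑ j : Fin q, |leafLaw q d lam n i η - leafLaw q d lam n j η| := by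
      intro i
      have hR : 0 ≤ (1 / (q : ℝ) ^ 2) * ∑ j : Fin q,
          |leafLaw q d lam n i η - leafLaw q d lam n j η| :=
        mul_nonneg (by positivity) (Finset.sum_nonneg fun j _ => abs_nonneg _)
      rcases hm.eq_or_lt with h | h
      · rw [← h, zero_mul]; exact hR
      · have e1 : marg q d lam n η * |joint q d lam n i η / marg q d lam n η - 1 / (q : ℝ)| =
            |joint q d lam n i η - marg q d lam n η / (q : ℝ)| := by
          rw [← abs_of_pos h, ← abs_mul, abs_of_pos h]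
          congr 1
          field_simp
        rw [e1]
        have e2 : joint q d lam n i η - marg q d lam n η / (q : ℝ) =
            (1 / (q : ℝ) ^ 2) * ∑ j : Fin q, (leafLaw q d lam n i η - leafLaw q d lam n j η) := by
          unfold marg joint
          rw [Finset.sum_sub_distrib, ← Finset.mul_sum]
          simp only [Finset.sum_const, Finset.card_univ, Fintype.card_fin, nsmul_eq_mul]
          field_simp
        rw [e2, abs_mul, abs_of_nonneg (by positivity : (0 : ℝ) ≤ 1 / (q : ℝ) ^ 2)]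
        exact mul_le_mul_of_nonneg_left (Finset.abs_sum_le_sum_abs _ _) (by positivity)
    calc marg q d lam n η *
          ((1 / 2) * ∑ i : Fin q, |joint q d lam n i η / marg q d lam n η - 1 / (q : ℝ)|)
        = (1 / 2) * ∑ i : Fin q,
            marg q d lam n η * |joint q d lam n i η / marg q d lam n η - 1 / (q : ℝ)| := by
          rw [← mul_assoc, mul_comm (marg q d lam n η) (1 / 2), mul_assoc, Finset.mul_sum]
      _ ≤ (1 / 2) * ∑ i : Fin q, (1 / (q : ℝ) ^ 2) *
            ∑ j : Fin q, |leafLaw q d lam n i η - leafLaw q d lam n j η| :=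
          mul_le_mul_of_nonneg_left (Finset.sum_le_sum fun i _ => hterm i) (by norm_num)
      _ = (1 / (2 * (q : ℝ) ^ 2)) * ∑ i : Fin q, ∑ j : Fin q,
            |leafLaw q d lam n i η - leafLaw q d lam n j η| := by
          rw [← Finset.mul_sum]; field_simp
  unfold rootBias
  calc ∑ η : (Fin n → Fin d) → Fin q, marg q d lam n η *
        ((1 / 2) * ∑ i : Fin q, |joint q d lam n i η / marg q d lam n η - 1 / (q : ℝ)|)
      ≤ ∑ η : (Fin n → Fin d) → Fin q, (1 / (2 * (q : ℝ) ^ 2)) * ∑ i : Fin q, ∑ j : Fin q,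
          |leafLaw q d lam n i η - leafLaw q d lam n j η| :=
        Finset.sum_le_sum fun η _ => hpt η
    _ = (1 / (2 * (q : ℝ) ^ 2)) * ∑ i : Fin q, ∑ j : Fin q,
          ∑ η : (Fin n → Fin d) → Fin q, |leafLaw q d lam n i η - leafLaw q d lam n j η| := by
        rw [← Finset.mul_sum, Finset.sum_comm]
        congr 1
        refine Finset.sum_congr rfl fun i _ => ?_
        rw [Finset.sum_comm]
    _ ≤ (1 / (2 * (q : ℝ) ^ 2)) * ∑ i : Fin q, ∑ j : Fin q, K := by
        refine mul_le_mul_of_nonneg_left ?_ (by positivity)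
        exact Finset.sum_le_sum fun i _ => Finset.sum_le_sum fun j _ => hK i j
    _ = K / 2 := by
        simp only [Finset.sum_const, Finset.card_univ, Fintype.card_fin, nsmul_eq_mul]
        field_simp

end tree

/-- **A second nonreconstruction region on the `d`-ary tree, of the Kesten-Stigum order.**
For every number of states `q ≥ 1`, every `d` and every admissible `lam`
(`-1 ≤ (q - 1) * lam` and `lam ≤ 1`) with `d q lam^2 < 2 + (q - 2) lam`, put
`rho = d q lam^2 / (2 + (q - 2) lam) < 1`.  Then the quantity `a_n` of the `q`-state Potts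
channel on the rooted `d`-ary tree satisfies `a_n ≤ √(2 rho^n)` for every `n`; in particular
`a_n → 0` (nonreconstruction). -/
theorem result (q d : ℕ) (hq : 0 < q) (lam : ℝ) (h0 : -1 ≤ ((q : ℝ) - 1) * lam) (h1 : lam ≤ 1)
    (hρ : d * q * lam ^ 2 < 2 + ((q : ℝ) - 2) * lam) :
    (∀ n : ℕ, rootBias q d lam n ≤
        Real.sqrt (2 * (d * q * lam ^ 2 / (2 + ((q : ℝ) - 2) * lam)) ^ n)) ∧
      Filter.Tendsto (rootBias q d lam) Filter.atTop (nhds 0) := by
  have hD := denom_pos hq h0 h1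
  have hρ0 : 0 ≤ d * q * lam ^ 2 / (2 + ((q : ℝ) - 2) * lam) := by positivity
  have hρ1 : d * q * lam ^ 2 / (2 + ((q : ℝ) - 2) * lam) < 1 := by
    rw [div_lt_one hD]; exact hρ
  have hbound : ∀ n : ℕ, rootBias q d lam n ≤
      Real.sqrt (2 * (d * q * lam ^ 2 / (2 + ((q : ℝ) - 2) * lam)) ^ n) := by
    intro n
    have hK : ∀ i j : Fin q,
        ∑ η : (Fin n → Fin d) → Fin q, |leafLaw q d lam n i η - leafLaw q d lam n j η| ≤
          2 * Real.sqrt (2 * (d * q * lam ^ 2 / (2 + ((q : ℝ) - 2) * lam)) ^ n) := by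
      intro i j
      have hl := l1_sq_le (leafLaw q d lam n i) (leafLaw q d lam n j)
        (leafLaw_nonneg hq h0 h1 n i) (leafLaw_nonneg hq h0 h1 n j)
        (leafLaw_sum hq n i) (leafLaw_sum hq n j)
      have hb := one_sub_bc_le (d := d) hq h0 h1 n i j
      have hS0 : 0 ≤ ∑ η : (Fin n → Fin d) → Fin q,
          |leafLaw q d lam n i η - leafLaw q d lam n j η| :=
        Finset.sum_nonneg fun η _ => abs_nonneg _
      have hsq : ((∑ η : (Fin n → Fin d) → Fin q,
          |leafLaw q d lam n i η - leafLaw q d lam n j η|) / 2) ^ 2 ≤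
          2 * (d * q * lam ^ 2 / (2 + ((q : ℝ) - 2) * lam)) ^ n := by
        nlinarith
      have := (Real.le_sqrt (by positivity) (by positivity)).mpr hsq
      linarith
    have := rootBias_le_of_l1 hq h0 h1 n _ hK
    linarith
  refine ⟨hbound, ?_⟩
  have hlim : Filter.Tendsto
      (fun n : ℕ => Real.sqrt (2 * (d * q * lam ^ 2 / (2 + ((q : ℝ) - 2) * lam)) ^ n))
      Filter.atTop (nhds 0) := by
    have h2 := (tendsto_pow_atTop_nhds_zero_of_lt_one hρ0 hρ1).const_mul 2
    rw [mul_zero] at h2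
    have h3 := (Real.continuous_sqrt.tendsto 0).comp h2
    rw [Real.sqrt_zero] at h3
    exact h3
  exact squeeze_zero (fun n => rootBias_nonneg hq h0 h1 n) hbound hlim

end Vale.Agent.Results.P154.B_HellingerRegion
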